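import Mathlib

namespace Vale.Agent.Results.P124.FinDefect

theorem result {X Y : Type} [NormedAddCommGroup X] [NormedSpace ℝ X] [CompleteSpace X]
    [NormedAddCommGroup Y] [NormedSpace ℝ Y] [CompleteSpace Y]
    (f : X → Y) (hbij : Function.Bijective f) (c C : ℝ) (hc : 0 < c)
    (hlow : ∀ x x', c * ‖x - x'‖ ≤ ‖f x - f x'‖) (hup : ∀ x x', ‖f x - f x'‖ ≤ C * ‖x - x'‖)
    (F : Submodule ℝ Y) (hF : FiniteDimensional ℝ F)
    (hadd : ∀ x x', f (x + x') - f x - f x' ∈ F) :
    Nonempty (X ≃L[ℝ] Y) := by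
  have hL : LipschitzWith C.toNNReal f :=
    LipschitzWith.of_dist_le' fun x x' => by simpa [dist_eq_norm] using hup x x'
  have hA : AntilipschitzWith (c⁻¹).toNNReal f :=
    AntilipschitzWith.of_le_mul_dist fun x x' => by
      rw [Real.coe_toNNReal _ (inv_pos.2 hc).le, dist_eq_norm, dist_eq_norm,
        le_inv_mul_iff₀ hc]
      exact hlow x x'
  obtain ⟨P, hP⟩ := Submodule.ClosedComplemented.of_finiteDimensional F
  let Q : Y →L[ℝ] Y := ContinuousLinearMap.id ℝ Y - F.subtypeL.comp P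
  have hQ : ∀ y, Q y = y - (P y : Y) := fun y => rfl
  have hQF : ∀ y, Q y = 0 ↔ y ∈ F := by
    intro y
    rw [hQ, sub_eq_zero]
    constructor
    · intro h
      rw [h]
      exact (P y).2
    · intro h
      rw [hP ⟨y, h⟩]
  let A : X →+ Y := AddMonoidHom.mk' (fun x => Q (f x)) (by
    intro x x'
    have := (hQF _).2 (hadd x x')
    rw [map_sub, map_sub, sub_sub, sub_eq_zero] at this
    exact this)
  let T : X →L[ℝ] Y := A.toRealLinearMap (Q.continuous.comp hL.continuous)
  have hT : ∀ x, T x = Q (f x) := fun x => rfl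
  let Z : Submodule ℝ X := LinearMap.ker (T : X →ₗ[ℝ] Y)
  have hZ : ∀ x, x ∈ Z ↔ f x ∈ F := fun x => by
    rw [← hQF, ← hT]
    rfl
  let g : Z → F := fun z => ⟨f z, (hZ z).1 z.2⟩
  have hgL : LipschitzWith C.toNNReal g := fun z z' => hL z z'
  have hgA : AntilipschitzWith (c⁻¹).toNNReal g := fun z z' => hA z z'
  have hgs : Function.Surjective g := by
    intro y
    obtain ⟨x, hx⟩ := hbij.2 y
    exact ⟨⟨x, (hZ x).2 (hx ▸ y.2)⟩, Subtype.ext hx⟩
  haveI : CompleteSpace Z := (T.isClosed_ker).completeSpace_coe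
  haveI : LocallyCompactSpace Z :=
    (hgA.isClosedEmbedding hgL.uniformContinuous).locallyCompactSpace
  haveI : FiniteDimensional ℝ Z := FiniteDimensional.of_locallyCompactSpace ℝ
  have hdim : Module.finrank ℝ Z = Module.finrank ℝ F := by
    have h1 := hgL.dimH_image_le Set.univ
    have h2 := hgA.le_dimH_image Set.univ
    rw [Set.image_univ_of_surjective hgs, Real.dimH_univ_eq_finrank,
      Real.dimH_univ_eq_finrank] at h1 h2
    exact_mod_cast le_antisymm h2 h1
  let L : Z ≃L[ℝ] F := ContinuousLinearEquiv.ofFinrankEq hdim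
  obtain ⟨R, hR⟩ := Submodule.ClosedComplemented.of_finiteDimensional Z
  let S : X →L[ℝ] Y := T + F.subtypeL.comp ((L : Z →L[ℝ] F).comp R)
  have hS : ∀ x, S x = T x + (L (R x) : Y) := fun x => rfl
  have hQT : ∀ x, Q (T x) = T x := by
    intro x
    rw [hT, hQ (f x), map_sub, (hQF _).2 (P (f x)).2, sub_zero, hQ]
  refine ⟨ContinuousLinearEquiv.ofBijective S ?_ ?_⟩
  · rw [LinearMap.ker_eq_bot']
    intro x hx
    have hx' : S x = 0 := hx
    have h1 : T x = 0 := by
      have := congrArg Q hx'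
      rwa [hS, map_add, hQT, (hQF _).2 (L (R x)).2, add_zero, map_zero] at this
    have h2 : R x = ⟨x, h1⟩ := hR ⟨x, h1⟩
    rw [hS, h1, zero_add, h2] at hx'
    have h3 : L ⟨x, h1⟩ = 0 := Subtype.ext hx'
    have h4 : (⟨x, h1⟩ : Z) = 0 := by simpa using h3
    exact congrArg Subtype.val h4
  · rw [LinearMap.range_eq_top]
    intro y
    obtain ⟨x, rfl⟩ := hbij.2 y
    let z : Z := L.symm (P (f x)) - R x
    refine ⟨x + z, ?_⟩
    change S (x + z) = f x
    have hz : T z = 0 := z.2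
    rw [hS, map_add, map_add, hz, add_zero, hR z, hT, hQ]
    simp [z]

end Vale.Agent.Results.P124.FinDefect
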