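import Vale.Agent.P124.Blow

namespace Vale.Agent.Results.P124.FrechetMod

/-- A Lipschitz isomorphism that is Frechet differentiable at one point modulo a
finite-dimensional subspace forces a linear isomorphism. -/
theorem result {X Y : Type} [NormedAddCommGroup X] [NormedSpace ℝ X] [CompleteSpace X]
    [NormedAddCommGroup Y] [NormedSpace ℝ Y] [CompleteSpace Y]
    (f : X → Y) (hbij : Function.Bijective f) (c C : ℝ) (hc : 0 < c)
    (hlow : ∀ x x', c * ‖x - x'‖ ≤ ‖f x - f x'‖) (hup : ∀ x x', ‖f x - f x'‖ ≤ C * ‖x - x'‖)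
    (F : Submodule ℝ Y) (hF : FiniteDimensional ℝ F) (x₀ : X) (T : X →L[ℝ] Y)
    (hdiff : ∀ ε > 0, ∃ δ > 0, ∀ h : X, ‖h‖ < δ →
      ∃ v ∈ F, ‖f (x₀ + h) - f x₀ - T h - v‖ ≤ ε * ‖h‖) :
    Nonempty (X ≃L[ℝ] Y) :=
  Vale.Agent.P124.frechet_mod f hbij c C hc hlow hup F hF x₀ T hdiff

end Vale.Agent.Results.P124.FrechetMod
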